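import Vale.Agent.P212.Final

namespace Vale.Agent.Results.P212.NotInjective

open Vale.Agent.P212

theorem result : ∃ (X : Type) (_ : MetricSpace X), UnifDiscrete X ∧ BddGeom X ∧
    ∃ (A : Type) (_ : NonUnitalCStarAlgebra A) (ι : SHom (CX X) A), IsMaxCompletion ι ∧
      ∃ μ : KX1 X →+ K1 A, IsAssembly ι μ ∧ ¬ RatInjective μ := main

end Vale.Agent.Results.P212.NotInjective
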